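import Mathlib

/-!
# P310: flat numeric multi-stack machines

The auxiliary machine model of the diagonalisation (it does not occur in the final statement).
A table is a list of rows; row `s` is the program line of state `s`.
-/

namespace Vale.Agent.P310

/-- `(op, stack, symbol, next state)`; `op = 1`: push `symbol` on `stack`, `op = 2`: pop `stack`,
otherwise the stacks do not change. -/
abbrev FAct := ℕ × ℕ × ℕ × ℕ

/-- Row `s`: the stack whose top is read in state `s`, and the actions for the read codes
`0, 1, 2, …` (code `0`: the stack is empty, code `c + 1`: the top symbol is `c`). -/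
abbrev FTable := List (ℕ × List FAct)

/-- Configurations: state and stacks (the top of a stack is the head of the list). -/
abbrev FCfg := ℕ × (ℕ → List ℕ)

/-- the read code of a stack -/
def rcode : List ℕ → ℕ
  | [] => 0
  | c :: _ => c + 1

/-- the stack read in state `s` -/
def FTable.rd (t : FTable) (s : ℕ) : ℕ := (t.getD s (0, [])).1

/-- the action in state `s` for the read code `g`; default: halt (stay in state `s`) -/
def FTable.act (t : FTable) (s g : ℕ) : FAct := (t.getD s (0, [])).2.getD g (0, 0, 0, s)

/-- the effect of an action on the stacks -/
def FAct.upd (a : FAct) (stk : ℕ → List ℕ) : ℕ → List ℕ :=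
  if a.1 = 1 then Function.update stk a.2.1 (a.2.2.1 :: stk a.2.1)
  else if a.1 = 2 then Function.update stk a.2.1 (stk a.2.1).tail
  else stk

/-- one step; a total function (halting = staying in the same configuration) -/
def FTable.step (t : FTable) (c : FCfg) : FCfg :=
  let a := t.act c.1 (rcode (c.2 (t.rd c.1)))
  (a.2.2.2, a.upd c.2)

/-- the start configuration: state `0`, the input word on stack `0` -/
def fstart (w : List Bool) : FCfg :=
  (0, fun i => if i = 0 then w.map (fun b => if b then 1 else 0) else [])

/-- the configuration after `n` steps -/
def FTable.run (t : FTable) (w : List Bool) (n : ℕ) : FCfg := t.step^[n] (fstart w)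

/-- the machine reaches the accepting state `1` in exactly `n` steps -/
def FTable.AccAt (t : FTable) (w : List Bool) (n : ℕ) : Prop := (t.run w n).1 = 1

end Vale.Agent.P310
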