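import Mathlib

/-!
# P310: the CFI incidence graph of a parity system, with leaves instead of colours

A parity system over `ZMod 2` is given by variables `V`, constraints `E` and slots `Sl`: the
constraint `e` has the active slots `act e`, and slot `t` of `e` holds the variable `sv e t`
(different active slots hold different variables). Its right hand sides are given by
`p : E → ZMod 2`.

The vertices of the graph are the pairs `(u, l)`, where `u` is a base vertex, i.e. `(v, s)` with
`v : V`, `s : ZMod 2`, or `(e, α)` with `e : E` and `α : Sl → ZMod 2`, and `l : Fin (L + 1)`.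
`(u, 0)` is the base vertex itself, `(u, l + 1)` is its leaf slot number `l`, joined to `(u, 0)`
iff `l < cnt`, where `cnt` is the number of leaves of the item of `u` (and `0` if `u = (e, α)`
and `α` violates the constraint `e`). All other leaf slots are isolated vertices.
-/

namespace Vale.Agent.P310

/-- A parity system presented by slots. -/
structure SlotSys (V E Sl : Type) where
  /-- the active slots of a constraint -/
  act : E → Finset Sl
  /-- the variable in a slot -/
  sv : E → Sl → V
  inj : ∀ e, Set.InjOn (sv e) (act e)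

variable {V E Sl : Type}

/-- Base vertices: `(v, s)` for a variable `v`, `(e, α)` for a constraint `e`. -/
abbrev BaseV (V E Sl : Type) := (V × ZMod 2) ⊕ (E × (Sl → ZMod 2))

/-- Vertices: base vertices and their leaf slots. -/
abbrev CfiV (V E Sl : Type) (L : ℕ) := BaseV V E Sl × Fin (L + 1)

namespace SlotSys

variable (S : SlotSys V E Sl)

open Classical in
/-- the variables of a constraint -/
noncomputable def vars (e : E) : Finset V := (S.act e).image (S.sv e)

open Classical in
/-- the variables of an item (a variable or a constraint) -/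
noncomputable def ivars : V ⊕ E → Finset V
  | .inl v => {v}
  | .inr e => S.vars e

/-- `α` satisfies the constraint `e` with right hand side `p e` -/
def Ok (p : E → ZMod 2) (e : E) (α : Sl → ZMod 2) : Prop := ∑ t ∈ S.act e, α t = p e

/-- `(v, s)` and `(e, α)` are joined iff `α` satisfies `e`, `v` occurs in `e` and `α` gives it the
value `s` -/
def Inc (p : E → ZMod 2) (v : V) (s : ZMod 2) (e : E) (α : Sl → ZMod 2) : Prop :=
  S.Ok p e α ∧ ∃ t ∈ S.act e, S.sv e t = v ∧ α t = s

/-- adjacency of base vertices -/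
def BaseAdj (p : E → ZMod 2) : BaseV V E Sl → BaseV V E Sl → Prop
  | .inl (v, s), .inr (e, α) => S.Inc p v s e α
  | .inr (e, α), .inl (v, s) => S.Inc p v s e α
  | _, _ => False

/-- the item of a base vertex -/
def item : BaseV V E Sl → V ⊕ E
  | .inl (v, _) => .inl v
  | .inr (e, _) => .inr e

/-- base vertices that carry leaves: variables, and constraints with a satisfying assignment -/
def Live (p : E → ZMod 2) : BaseV V E Sl → Prop
  | .inl _ => True
  | .inr (e, α) => S.Ok p e α

/-- `u` is joined to its leaf slot number `l` -/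
def LeafAdj (p : E → ZMod 2) (cnt : V ⊕ E → ℕ) (u : BaseV V E Sl) (l : ℕ) : Prop :=
  S.Live p u ∧ l < cnt (item u)

/-- The graph of a parity system. -/
def graph (p : E → ZMod 2) (cnt : V ⊕ E → ℕ) (L : ℕ) : SimpleGraph (CfiV V E Sl L) where
  Adj x y :=
    (x.2.val = 0 ∧ y.2.val = 0 ∧ S.BaseAdj p x.1 y.1) ∨
    (x.1 = y.1 ∧ x.2.val = 0 ∧ y.2.val ≠ 0 ∧ S.LeafAdj p cnt x.1 (y.2.val - 1)) ∨
    (x.1 = y.1 ∧ y.2.val = 0 ∧ x.2.val ≠ 0 ∧ S.LeafAdj p cnt x.1 (x.2.val - 1))
  symm := ⟨by
    rintro ⟨x, i⟩ ⟨y, j⟩ h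
    rcases h with ⟨h1, h2, h3⟩ | ⟨h1, h2, h3, h4⟩ | ⟨h1, h2, h3, h4⟩
    · refine Or.inl ⟨h2, h1, ?_⟩
      rcases x with ⟨v, s⟩ | ⟨e, α⟩ <;> rcases y with ⟨v', s'⟩ | ⟨e', α'⟩ <;> exact h3
    · simp only at h1 h2 h3 h4
      exact Or.inr (Or.inr ⟨h1.symm, h2, h3, h1 ▸ h4⟩)
    · simp only at h1 h2 h3 h4
      exact Or.inr (Or.inl ⟨h1.symm, h2, h3, h1 ▸ h4⟩)⟩
  loopless := ⟨by
    rintro ⟨x, i⟩ h
    rcases h with ⟨h1, h2, h3⟩ | ⟨h1, h2, h3, h4⟩ | ⟨h1, h2, h3, h4⟩
    · rcases x with ⟨v, s⟩ | ⟨e, α⟩ <;> exact h3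
    · exact h3 h2
    · exact h3 h2⟩

end SlotSys

end Vale.Agent.P310
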