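import Mathlib

/-!
# P310: definitions for the statement

* `Color k r`, `wl G k r x`, `WLEquiv k G H`: the colours of the `k`-dimensional (joint-update)
  Weisfeiler-Leman refinement, exactly as in the problem file, and `k`-WL equivalence.
* `adjBits`, `inputWord`: the adjacency matrix of a graph and the input word of a pair of graphs.
* `DecidesWL A yes inp k T`: the (multi-stack, i.e. multitape) Turing machine `A` decides `≡_k`, and
  its running time on all pairs of graphs with `n` vertices is at most `T n`.
-/

namespace Vale.Agent.P310

open Turing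

/-- The colours after `r` rounds of the `k`-dimensional Weisfeiler-Leman refinement. A colour after
`0` rounds is an atomic type: it records, for all `i, j`, whether `x i = x j` and whether `x i` and
`x j` are adjacent. A colour after `r + 1` rounds is a colour after `r` rounds together with a
multiset of `k`-tuples of colours after `r` rounds. -/
def Color (k : ℕ) : ℕ → Type
  | 0 => Fin k → Fin k → Prop × Prop
  | r + 1 => Color k r × Multiset (Fin k → Color k r)

/-- The colour `C_r(x)` of the `k`-tuple `x` of vertices of `G`; `Function.update x i y` is the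
tuple `x` with its `i`-th entry replaced by `y`. -/
def wl {V : Type} [Fintype V] (G : SimpleGraph V) (k : ℕ) : (r : ℕ) → (Fin k → V) → Color k r
  | 0, x => fun i j => (x i = x j, G.Adj (x i) (x j))
  | r + 1, x => (wl G k r x,
      (Finset.univ : Finset V).val.map fun y => fun i => wl G k r (Function.update x i y))

/-- `k`-WL equivalence `G ≡_k H`: for every `r` the multisets of the colours `C_r` of all
`k`-tuples coincide. -/
def WLEquiv {V W : Type} [Fintype V] [Fintype W] (k : ℕ) (G : SimpleGraph V)
    (H : SimpleGraph W) : Prop :=
  ∀ r, (Finset.univ : Finset (Fin k → V)).val.map (wl G k r) =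
    (Finset.univ : Finset (Fin k → W)).val.map (wl H k r)

open Classical in
/-- The adjacency matrix of a graph, row by row. -/
noncomputable def adjBits {n : ℕ} (G : SimpleGraph (Fin n)) : List Bool :=
  (List.finRange n).flatMap fun i => (List.finRange n).map fun j => decide (G.Adj i j)

/-- The input word of a pair of graphs: the two adjacency matrices. -/
noncomputable def inputWord {n : ℕ} (G H : SimpleGraph (Fin n)) : List Bool :=
  adjBits G ++ adjBits H

/-- The configuration of the machine `A` after `s` steps from the configuration `c` (`none` if the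
machine has stopped before). -/
def stepsFrom (A : FinTM2) (c : A.Cfg) : ℕ → Option A.Cfg
  | 0 => some c
  | s + 1 => (stepsFrom A c s).bind A.step

/-- The deterministic Turing machine `A` decides `≡_k`, and on every pair of graphs with `n`
vertices it halts after at most `T n` steps. The input (each bit `b` written as the symbol `inp b`)
is on the input stack `A.k₀`, all other stacks are empty; at the end, the top symbol of the output
stack `A.k₁` is `yes` if and only if the graphs are `k`-WL equivalent. -/
def DecidesWL (A : FinTM2) (inp : Bool → A.Γ A.k₀) (yes : A.Γ A.k₁) (k : ℕ) (T : ℕ → ℕ) : Prop :=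
  ∀ (n : ℕ) (G H : SimpleGraph (Fin n)), ∃ s ≤ T n, ∃ c : A.Cfg,
    stepsFrom A (initList A ((inputWord G H).map inp)) s = some c ∧ c.l = none ∧
      ((c.stk A.k₁).head? = some yes ↔ WLEquiv k G H)

/-- The time needed to decide `≡_k` is `n ^ Ω(k)`: there are `c > 0` and `k₀` such that for every
`k ≥ k₀`, no deterministic Turing machine decides `≡_k` in time `O(n ^ (c k))`. -/
def LowerBound : Prop :=
  ∃ c : ℝ, 0 < c ∧ ∃ k₀ : ℕ, ∀ k : ℕ, k₀ ≤ k →
    ∀ (A : FinTM2) (inp : Bool → A.Γ A.k₀) (yes : A.Γ A.k₁) (T : ℕ → ℕ),
      DecidesWL A inp yes k T →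
        ¬ (fun n : ℕ => (T n : ℝ)) =O[Filter.atTop] (fun n : ℕ => (n : ℝ) ^ (c * k))

/-- There is no function `g` with `g(k) = o(k)` such that for every fixed `k ≥ 2` some
deterministic Turing machine decides `≡_k` in time `O(n ^ g(k))`. -/
def NoSublinearExponent : Prop :=
  ¬ ∃ g : ℕ → ℝ, g =o[Filter.atTop] (fun k : ℕ => (k : ℝ)) ∧
    ∀ k : ℕ, 2 ≤ k → ∃ (A : FinTM2) (inp : Bool → A.Γ A.k₀) (yes : A.Γ A.k₁) (T : ℕ → ℕ),
      DecidesWL A inp yes k T ∧
        (fun n : ℕ => (T n : ℝ)) =O[Filter.atTop] (fun n : ℕ => (n : ℝ) ^ g k)

end Vale.Agent.P310
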