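import Vale.Agent.P310.HSys

/-!
# P310: the numbering of the graphs, numeric definitions

All functions here are built from arithmetic and list lookups. `D` is the Horn data, `k` the
dimension, `F = 2 ^ (2 * (k + 3) + 1)` the number of assignments of a constraint vertex. `par` is
`false` for the graph `G` (all right hand sides `0`) and `true` for the graph `H` (right hand side
`1` at the goal constraint).
-/

namespace Vale.Agent.P310

namespace HData

variable (D : HData) (k F : ℕ)

/-- number of bits -/
def nM : ℕ := D.nR * D.nB k

/-- number of variables -/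
def nV : ℕ := D.nC * D.nM k * (k * D.b)

/-- number of row constraints -/
def nRow : ℕ := D.nR * D.nM k * (k * D.b)

/-- number of constraints -/
def nE : ℕ := D.nRow k + (D.nM k + 1)

/-- number of base vertices -/
def nU : ℕ := D.nV k * 2 + D.nE k * F

/-- a bound on the degrees in the graph without leaves -/
def bigB : ℕ := D.nU k F + 1

/-- number of leaf slots -/
def nL : ℕ := (D.nV k + D.nE k) * D.bigB k F

/-- number of vertices -/
def nTot : ℕ := D.nU k F * (D.nL k F + 1)

/-- number of the variable with type `c`, bit `m`, row `r`, symbol `a` -/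
def varIdx (c m r a : ℕ) : ℕ := a + D.b * r + k * D.b * (m + D.nM k * c)

/-- is slot `t` of the constraint number `e` active? -/
def actN (e t : ℕ) : Bool :=
  if e < D.nRow k then
    let a := e % (k * D.b) % D.b
    let r := e % (k * D.b) / D.b
    let ρ := e / (k * D.b) / D.nM k
    decide (((D.rule ρ).op (r % D.h)).inDom a) &&
      (decide (t < 2 * (k + 3)) && decide (t / (k + 3) < (D.rule ρ).1.length) ||
        decide (t = 2 * (k + 3)))
  else decide (t < k)

/-- the number of the variable in slot `t` of the constraint number `e` -/
def svN (e t : ℕ) : ℕ :=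
  if e < D.nRow k then
    let a := e % (k * D.b) % D.b
    let r := e % (k * D.b) / D.b
    let m := e / (k * D.b) % D.nM k
    let ρ := e / (k * D.b) / D.nM k
    if t < 2 * (k + 3) then
      D.varIdx k ((D.rule ρ).1.getD (t / (k + 3)) 0)
        (lineAt D.nR (k + 3) (m / D.nB k) (m % D.nB k) (t % (k + 3)) + D.nB k * ρ) r a
    else D.varIdx k (D.rule ρ).2.1 m r (((D.rule ρ).op (r % D.h)).val D.b a)
  else if e < D.nRow k + D.nM k then D.varIdx k 0 (e - D.nRow k) (t % k) 0
  else D.varIdx k 1 0 (t % k) 0

/-- does the assignment number `α` satisfy the constraint number `e`? -/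
def okN (par : Bool) (e α : ℕ) : Bool :=
  decide (((List.range (2 * (k + 3) + 1)).filter fun t => D.actN k e t && α.testBit t).length % 2 =
    if par && decide (e = D.nRow k + D.nM k) then 1 else 0)

/-- adjacency of variable vertices and constraint vertices -/
def incN (par : Bool) (v s e α : ℕ) : Bool :=
  D.okN k par e α && (List.range (2 * (k + 3) + 1)).any fun t =>
    D.actN k e t && (decide (D.svN k e t = v) && decide (α.testBit t = decide (s = 1)))

/-- adjacency of base vertices -/
def baseAdjN (par : Bool) (u u' : ℕ) : Bool :=
  if u < D.nV k * 2 then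
    if u' < D.nV k * 2 then false
    else D.incN k par (u / 2) (u % 2) ((u' - D.nV k * 2) / F) ((u' - D.nV k * 2) % F)
  else
    if u' < D.nV k * 2 then
      D.incN k par (u' / 2) (u' % 2) ((u - D.nV k * 2) / F) ((u - D.nV k * 2) % F)
    else false

/-- the item of a base vertex -/
def itemN (u : ℕ) : ℕ := if u < D.nV k * 2 then u / 2 else D.nV k + (u - D.nV k * 2) / F

/-- base vertices that carry leaves -/
def liveN (par : Bool) (u : ℕ) : Bool :=
  if u < D.nV k * 2 then true
  else D.okN k par ((u - D.nV k * 2) / F) ((u - D.nV k * 2) % F)

/-- is the base vertex `u` joined to its leaf slot `l`? -/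
def leafN (par : Bool) (u l : ℕ) : Bool :=
  D.liveN k F par u && decide (l < (D.itemN k F u + 1) * D.bigB k F)

/-- adjacency of vertices (as numbers; numbers `≥ nTot` are isolated vertices) -/
def adjN (par : Bool) (x y : ℕ) : Bool :=
  decide (x < D.nTot k F) && (decide (y < D.nTot k F) &&
  (let u := x / (D.nL k F + 1)
   let l := x % (D.nL k F + 1)
   let u' := y / (D.nL k F + 1)
   let l' := y % (D.nL k F + 1)
   (decide (l = 0) && (decide (l' = 0) && D.baseAdjN k F par u u')) ||
    (decide (u = u') && ((decide (l = 0) && (!decide (l' = 0) && D.leafN k F par u (l' - 1))) ||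
      (decide (l' = 0) && (!decide (l = 0) && D.leafN k F par u (l - 1)))))))

/-- the bits of the adjacency matrix of the graph with `N` vertices -/
def bitsN (par : Bool) (N : ℕ) : List Bool :=
  (List.range N).flatMap fun x => (List.range N).map fun y => D.adjN k F par x y

end HData

end Vale.Agent.P310
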