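import Vale.Agent.P310.H44.Horn
import Vale.Agent.P310.H630.Line
import Vale.Agent.P310.Graph

/-!
# P310: Horn systems as data

`HData` is a finite description of a row Horn system with all premises of a rule at the same
address: `b` symbols, `h` digits, `nC` types (`0` the start type, `1` the goal type, both addresses
are zero), and a list of rules `(premise types, conclusion type, one digit operation per digit)`.
A digit operation `(lo, hi, m, a)` has domain `lo ≤ d < hi` and maps `d` to `(m * d + a - 1) % b`.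
-/

namespace Vale.Agent.P310

/-- digit operation `(lo, hi, m, a)`: domain `lo ≤ d < hi`, value `(m * d + a - 1) % b` -/
abbrev DOp := ℕ × ℕ × ℕ × ℕ

/-- `d` is in the domain of the digit operation -/
def DOp.inDom (o : DOp) (d : ℕ) : Prop := o.1 ≤ d ∧ d < o.2.1

instance (o : DOp) (d : ℕ) : Decidable (o.inDom d) := inferInstanceAs (Decidable (_ ∧ _))

/-- the value of the digit operation, base `b` -/
def DOp.val (o : DOp) (b d : ℕ) : ℕ := (o.2.2.1 * d + o.2.2.2 - 1) % b

/-- rule: premise types, conclusion type, digit operations -/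
abbrev HRule := List ℕ × ℕ × List DOp

/-- the operation at digit `j` (default: empty domain) -/
def HRule.op (R : HRule) (j : ℕ) : DOp := R.2.2.getD j (0, 0, 0, 0)

/-- Horn data -/
structure HData where
  /-- number of symbols -/
  b : ℕ
  /-- number of digits -/
  h : ℕ
  /-- number of types -/
  nC : ℕ
  /-- the rules -/
  rules : List HRule

/-- rule number `ρ` -/
def HData.rule (D : HData) (ρ : ℕ) : HRule := D.rules.getD ρ ([], 0, [])

/-- number of rules -/
abbrev HData.nR (D : HData) : ℕ := D.rules.length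

/-- well-formed Horn data -/
structure HData.Ok (D : HData) : Prop where
  hb : 0 < D.b
  hh : 0 < D.h
  hC : 2 ≤ D.nC
  hR : 0 < D.nR
  ne : ∀ R ∈ D.rules, R.1 ≠ []
  len : ∀ R ∈ D.rules, R.1.length ≤ 2
  nodup : ∀ R ∈ D.rules, R.1.Nodup
  lt : ∀ R ∈ D.rules, ∀ c ∈ R.1, c < D.nC
  concl_lt : ∀ R ∈ D.rules, R.2.1 < D.nC
  concl_notin : ∀ R ∈ D.rules, R.2.1 ∉ R.1
  concl_ne : ∀ R ∈ D.rules, R.2.1 ≠ 0
  goal_notin : ∀ R ∈ D.rules, 1 ∉ R.1
  goal_zero : ∀ R ∈ D.rules, R.2.1 = 1 → ∀ j < D.h, ∀ d < D.b, (R.op j).val D.b d = 0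

theorem HData.rule_mem (D : HData) (ρ : Fin D.nR) : D.rule ρ ∈ D.rules := by
  rw [HData.rule, List.getD_eq_getElem _ _ ρ.2]
  exact List.getElem_mem _

variable (D : HData)

/-- the row Horn system of Horn data -/
def HData.toHorn (hD : D.Ok) : RowHorn (Fin D.b) (Fin D.nC) (Fin D.nR) D.h where
  prem ρ := Finset.univ.filter fun c : Fin D.nC => (c : ℕ) ∈ (D.rule ρ).1
  concl ρ := ⟨(D.rule ρ).2.1, hD.concl_lt _ (D.rule_mem ρ)⟩
  dom ρ j := {a | ((D.rule ρ).op j).inDom a}
  phi _ _ _ a := a
  psi ρ j a := ⟨((D.rule ρ).op j).val D.b a, Nat.mod_lt _ hD.hb⟩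
  c0 := ⟨0, by have := hD.hC; omega⟩
  x0 _ := ⟨0, hD.hb⟩
  cg := ⟨1, by have := hD.hC; omega⟩
  xg _ := ⟨0, hD.hb⟩
  prem_ne ρ := by
    obtain ⟨c, hc⟩ := List.exists_mem_of_ne_nil _ (hD.ne _ (D.rule_mem ρ))
    exact ⟨⟨c, hD.lt _ (D.rule_mem ρ) c hc⟩, by simpa using hc⟩
  concl_notin ρ := by simpa using hD.concl_notin _ (D.rule_mem ρ)
  phi_inj ρ c j _ := fun a _ a' _ h => h
  c0_concl ρ h := hD.concl_ne _ (D.rule_mem ρ) (congrArg Fin.val h)
  cg_prem ρ := by simpa using hD.goal_notin _ (D.rule_mem ρ)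
  cg_concl ρ j a h := Fin.ext (hD.goal_zero _ (D.rule_mem ρ) (congrArg Fin.val h) j j.2 a a.2)
  c0_ne_cg h := by simpa using congrArg Fin.val h

/-- derivable facts, with numbers: the facts `(c, x)`, `x : ℕ → ℕ` (only the digits `x j`, `j < h`,
matter; the other ones are `0`) -/
inductive HData.NDer (D : HData) : ℕ → (Fin D.h → ℕ) → Prop
  | base : HData.NDer D 0 fun _ => 0
  | step (R : HRule) (hR : R ∈ D.rules) (x : Fin D.h → ℕ) (hb : ∀ j, x j < D.b)
      (hx : ∀ j : Fin D.h, (R.op j).inDom (x j))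
      (hp : ∀ c ∈ R.1, HData.NDer D c x) :
      HData.NDer D R.2.1 fun j => (R.op j).val D.b (x j)

/-- Both notions of derivability agree. -/
theorem HData.der_iff (hD : D.Ok) (c : Fin D.nC) (x : Fin D.h → Fin D.b) :
    (D.toHorn hD).Der c x ↔ D.NDer c fun j => x j := by
  constructor
  · intro h
    induction h with
    | base => exact NDer.base
    | step ρ x hx hp ih =>
      refine NDer.step (D.rule ρ) (D.rule_mem ρ) (fun j => x j) (fun j => (x j).2)
        (fun j => hx j) fun c hc => ?_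
      exact ih ⟨c, hD.lt _ (D.rule_mem ρ) c hc⟩ (by simpa [HData.toHorn] using hc)
  · suffices h : ∀ c' x', D.NDer c' x' → ∀ (c : Fin D.nC) (x : Fin D.h → Fin D.b), (c : ℕ) = c' →
        (∀ j, (x j : ℕ) = x' j) → (D.toHorn hD).Der c x from
      fun h' => h _ _ h' c x rfl fun _ => rfl
    intro c' x' h
    induction h with
    | base =>
      intro c x hc hx
      have h1 : c = (D.toHorn hD).c0 := Fin.ext hc
      have h2 : x = (D.toHorn hD).x0 := funext fun j => Fin.ext (hx j)
      rw [h1, h2]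
      exact RowHorn.Der.base
    | step R hR y hb hy hp ih =>
      intro c x hc hx
      obtain ⟨i, hi, rfl⟩ := List.mem_iff_getElem.1 hR
      have hrule : D.rule i = D.rules[i] := List.getD_eq_getElem _ _ hi
      have h1 : c = (D.toHorn hD).concl ⟨i, hi⟩ := Fin.ext (by
        rw [hc]
        show _ = (D.rule i).2.1
        rw [hrule])
      have h2 : x = fun j => (D.toHorn hD).psi ⟨i, hi⟩ j ⟨y j, hb j⟩ := funext fun j => Fin.ext (by
        rw [hx]
        show _ = ((D.rule i).op j).val D.b (y j)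
        rw [hrule])
      rw [h1, h2]
      have hi' : i < D.nR := hi
      refine RowHorn.Der.step (H := D.toHorn hD) (⟨i, hi'⟩ : Fin D.nR)
        (fun j => (⟨y j, hb j⟩ : Fin D.b)) (fun j => ?_) fun c hc => ?_
      · show ((D.rule i).op j).inDom (y j)
        rw [hrule]
        exact hy j
      · have hc' : (c : ℕ) ∈ (D.rules[i]).1 := by
          have : (c : ℕ) ∈ (D.rule i).1 := by simpa [HData.toHorn] using hc
          rwa [hrule] at this
        exact ih c hc' c (fun j => ⟨y j, hb j⟩) rfl fun _ => rfl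

end Vale.Agent.P310
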