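import Vale.Agent.P310.HData

/-!
# P310: the slot system of Horn data
-/

namespace Vale.Agent.P310

/-- digit `j` is stored in the rows `r` with `r % h = j` -/
def modRows {k h : ℕ} (hh : 0 < h) (hk : 2 * h ≤ k) : Rows k h where
  π r := ⟨r % h, Nat.mod_lt _ hh⟩
  surj j := ⟨⟨j, by omega⟩, Fin.ext (Nat.mod_eq_of_lt j.2)⟩
  two r := by
    by_cases hr : (r : ℕ) < h
    · refine ⟨⟨r + h, by omega⟩, fun e => ?_, Fin.ext ?_⟩
      · have := congrArg Fin.val e
        simp at this
        omega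
      · simp
    · refine ⟨⟨r % h, by have := Nat.mod_lt r hh; omega⟩, fun e => ?_, Fin.ext ?_⟩
      · have := congrArg Fin.val e
        have h2 := Nat.mod_lt r hh
        simp only at this
        omega
      · simp

namespace HData

variable (D : HData)

/-- the size of `M'` -/
abbrev nB (k : ℕ) : ℕ := lineB D.nR (k + 3)

/-- variables -/
abbrev HVar (k : ℕ) := Var (Fin D.b) (Fin D.nC) (Fin D.nR) (Fin (D.nB k)) k

/-- constraints -/
abbrev HCon (k : ℕ) := Con (Fin D.b) (Fin D.nR) (Fin (D.nB k)) k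

/-- slots -/
abbrev HSl (k : ℕ) := Fin (2 * (k + 3) + 1)

variable {D} {k : ℕ}

theorem nB_pos (hD : D.Ok) : 0 < D.nB k := by
  have := hD.hR
  unfold nB lineB lineY
  positivity

theorem premType_lt (hD : D.Ok) (ρ : Fin D.nR) (i : ℕ) : (D.rule ρ).1.getD i 0 < D.nC := by
  by_cases h : i < (D.rule ρ).1.length
  · rw [List.getD_eq_getElem _ _ h]
    exact hD.lt _ (D.rule_mem ρ) _ (List.getElem_mem h)
  · rw [List.getD_eq_default _ _ (not_lt.1 h)]
    have := hD.hC
    omega

/-- the type of the premise number `i` of the rule `ρ` -/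
def premType (hD : D.Ok) (ρ : Fin D.nR) (i : ℕ) : Fin D.nC :=
  ⟨(D.rule ρ).1.getD i 0, premType_lt hD ρ i⟩

/-- the bit used in the goal constraint -/
def m0 (hD : D.Ok) (k : ℕ) : Fin D.nR × Fin (D.nB k) := (⟨0, hD.hR⟩, ⟨0, nB_pos hD⟩)

/-- slot `t` of a constraint is active -/
def Act (k : ℕ) : D.HCon k → ℕ → Prop
  | .row ρ _ r a, t => ((D.rule ρ).op (r % D.h)).inDom a ∧
      (t < 2 * (k + 3) ∧ t / (k + 3) < (D.rule ρ).1.length ∨ t = 2 * (k + 3))
  | .cross _, t => t < k
  | .goal, t => t < k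

instance (e : D.HCon k) (t : ℕ) : Decidable (Act k e t) := by
  cases e <;> unfold Act <;> infer_instance

/-- the variable in slot `t` of a constraint -/
def slotVar (hD : D.Ok) (hk : 0 < k) : D.HCon k → ℕ → D.HVar k
  | .row ρ m r a, t =>
    if t < 2 * (k + 3) then
      ((premType hD ρ (t / (k + 3)), (ρ, ⟨lineAt D.nR (k + 3) m.1 m.2 (t % (k + 3)),
        lineAt_lt m.1.2 m.2.2 (Nat.mod_lt _ (by omega))⟩)), r, a)
    else
      (((D.toHorn hD).concl ρ, m), r, ⟨((D.rule ρ).op (r % D.h)).val D.b a, Nat.mod_lt _ hD.hb⟩)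
  | .cross m, t => (((D.toHorn hD).c0, m), ⟨t % k, Nat.mod_lt _ hk⟩, ⟨0, hD.hb⟩)
  | .goal, t => (((D.toHorn hD).cg, m0 hD k), ⟨t % k, Nat.mod_lt _ hk⟩, ⟨0, hD.hb⟩)

theorem slotVar_inj (hD : D.Ok) (hk : 0 < k) (e : D.HCon k) {t t' : ℕ} (ht : Act k e t)
    (ht' : Act k e t') (h : slotVar hD hk e t = slotVar hD hk e t') : t = t' := by
  have hq : 0 < k + 3 := by omega
  cases e with
  | row ρ m r a =>
    obtain ⟨_, h1⟩ := ht
    obtain ⟨_, h1'⟩ := ht'
    have key : ∀ i < (D.rule ρ).1.length, premType hD ρ i ≠ (D.toHorn hD).concl ρ := by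
      intro i hi e
      have h2 : (D.rule ρ).1.getD i 0 = (D.rule ρ).2.1 := congrArg Fin.val e
      rw [List.getD_eq_getElem _ _ hi] at h2
      exact hD.concl_notin _ (D.rule_mem ρ) (h2 ▸ List.getElem_mem hi)
    by_cases c : t < 2 * (k + 3) <;> by_cases c' : t' < 2 * (k + 3)
    · simp only [slotVar, if_pos c, if_pos c', Prod.mk.injEq, Fin.mk.injEq, true_and, and_true] at h
      obtain ⟨e1, e2⟩ := h
      have hp : t / (k + 3) < (D.rule ρ).1.length := by omega
      have hp' : t' / (k + 3) < (D.rule ρ).1.length := by omega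
      have e3 : (D.rule ρ).1.getD (t / (k + 3)) 0 = (D.rule ρ).1.getD (t' / (k + 3)) 0 :=
        congrArg Fin.val e1
      rw [List.getD_eq_getElem _ _ hp, List.getD_eq_getElem _ _ hp'] at e3
      have e4 : t / (k + 3) = t' / (k + 3) :=
        (List.Nodup.getElem_inj_iff (hD.nodup _ (D.rule_mem ρ))).1 e3
      have e5 : t % (k + 3) = t' % (k + 3) := by
        rw [← lineAt_div m.1.2 m.2.2 (Nat.mod_lt t hq), e2,
          lineAt_div m.1.2 m.2.2 (Nat.mod_lt t' hq)]
      rw [← Nat.div_add_mod t (k + 3), e4, e5, Nat.div_add_mod]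
    · exfalso
      simp only [slotVar, if_pos c, if_neg c', Prod.mk.injEq] at h
      exact key _ (by omega) h.1.1
    · exfalso
      simp only [slotVar, if_neg c, if_pos c', Prod.mk.injEq] at h
      exact key _ (by omega) h.1.1.symm
    · omega
  | cross m =>
    simp only [Act] at ht ht'
    simp only [slotVar, Prod.mk.injEq, Fin.mk.injEq, true_and, and_true] at h
    rwa [Nat.mod_eq_of_lt ht, Nat.mod_eq_of_lt ht'] at h
  | goal =>
    simp only [Act] at ht ht'
    simp only [slotVar, Prod.mk.injEq, Fin.mk.injEq, true_and, and_true] at h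
    rwa [Nat.mod_eq_of_lt ht, Nat.mod_eq_of_lt ht'] at h

/-- the slot system of Horn data -/
def hsys (hD : D.Ok) (hk : 0 < k) : SlotSys (D.HVar k) (D.HCon k) (HSl k) where
  act e := Finset.univ.filter fun t : HSl k => Act k e t
  sv e t := slotVar hD hk e t
  inj e t ht t' ht' h := Fin.ext (slotVar_inj hD hk e (by simpa using ht) (by simpa using ht') h)

/-- The variables of a valid constraint. -/
theorem vars_eq (hD : D.Ok) (hk : 0 < k) (hk2 : 2 * D.h ≤ k) (e : D.HCon k)
    (he : e.Valid (D.toHorn hD) (modRows hD.hh hk2)) :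
    (hsys hD hk).vars e =
      e.vars (D.toHorn hD) (modRows hD.hh hk2) (lineDesign D.nR (k + 3)) (m0 hD k) := by
  classical
  have hq : 0 < k + 3 := by omega
  ext v
  simp only [SlotSys.vars, hsys, Finset.mem_image, Finset.mem_filter, Finset.mem_univ, true_and]
  cases e with
  | row ρ m r a =>
    have hdom : ((D.rule ρ).op (r % D.h)).inDom a := he
    simp only [Con.vars, Finset.mem_union, Finset.mem_image, Finset.mem_product,
      Finset.mem_singleton, mem_lineDesign]
    constructor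
    · rintro ⟨t, ⟨_, h1⟩, rfl⟩
      by_cases c : (t : ℕ) < 2 * (k + 3)
      · left
        have hp : (t : ℕ) / (k + 3) < (D.rule ρ).1.length := by omega
        refine ⟨(premType hD ρ (t / (k + 3)), ⟨lineAt D.nR (k + 3) m.1 m.2 (t % (k + 3)),
          lineAt_lt m.1.2 m.2.2 (Nat.mod_lt _ hq)⟩), ⟨?_, t % (k + 3), Nat.mod_lt _ hq, rfl⟩, ?_⟩
        · simp only [toHorn, premType, Finset.mem_filter, Finset.mem_univ, true_and]
          rw [List.getD_eq_getElem _ _ hp]
          exact List.getElem_mem hp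
        · rw [slotVar, if_pos c]
          rfl
      · right
        rw [slotVar, if_neg c]
        rfl
    · rintro (⟨⟨c, l⟩, ⟨hc, l', hl', hl⟩, rfl⟩ | rfl)
      · have hc' : (c : ℕ) ∈ (D.rule ρ).1 := by simpa [toHorn] using hc
        obtain ⟨i, hi, hic⟩ := List.mem_iff_getElem.1 hc'
        have hi2 : i < 2 := lt_of_lt_of_le hi (hD.len _ (D.rule_mem ρ))
        have hlt : i * (k + 3) + l' < 2 * (k + 3) := by
          have : i * (k + 3) ≤ 1 * (k + 3) := Nat.mul_le_mul_right _ (by omega)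
          omega
        have hdiv : (i * (k + 3) + l') / (k + 3) = i := by
          rw [mul_comm, Nat.mul_add_div hq, Nat.div_eq_of_lt hl', add_zero]
        have hmod : (i * (k + 3) + l') % (k + 3) = l' := by
          rw [mul_comm, Nat.mul_add_mod, Nat.mod_eq_of_lt hl']
        refine ⟨⟨i * (k + 3) + l', by omega⟩, ⟨hdom, Or.inl ⟨hlt, ?_⟩⟩, ?_⟩
        · show (i * (k + 3) + l') / (k + 3) < _
          rw [hdiv]
          exact hi
        · rw [slotVar, if_pos (show (i * (k + 3) + l') < 2 * (k + 3) from hlt)]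
          refine Prod.ext (Prod.ext (Fin.ext ?_) (Prod.ext rfl (Fin.ext ?_))) rfl
          · show (D.rule ρ).1.getD ((i * (k + 3) + l') / (k + 3)) 0 = c
            rw [hdiv, List.getD_eq_getElem _ _ hi, hic]
          · show lineAt D.nR (k + 3) m.1 m.2 ((i * (k + 3) + l') % (k + 3)) = l
            rw [hmod, hl]
      · refine ⟨⟨2 * (k + 3), by omega⟩, ⟨hdom, Or.inr rfl⟩, ?_⟩
        rw [slotVar, if_neg (show ¬ (2 * (k + 3) < 2 * (k + 3)) from lt_irrefl _)]
        rfl
  | cross m =>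
    simp only [Con.vars, Finset.mem_image, Finset.mem_univ, true_and]
    constructor
    · rintro ⟨t, ht, rfl⟩
      exact ⟨⟨t, ht⟩, Prod.ext rfl (Prod.ext (Fin.ext (Nat.mod_eq_of_lt ht).symm) rfl)⟩
    · rintro ⟨r, rfl⟩
      refine ⟨⟨r, by omega⟩, r.2, ?_⟩
      exact Prod.ext rfl (Prod.ext (Fin.ext (Nat.mod_eq_of_lt r.2)) rfl)
  | goal =>
    simp only [Con.vars, Finset.mem_image, Finset.mem_univ, true_and]
    constructor
    · rintro ⟨t, ht, rfl⟩
      exact ⟨⟨t, ht⟩, Prod.ext rfl (Prod.ext (Fin.ext (Nat.mod_eq_of_lt ht).symm) rfl)⟩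
    · rintro ⟨r, rfl⟩
      refine ⟨⟨r, by omega⟩, r.2, ?_⟩
      exact Prod.ext rfl (Prod.ext (Fin.ext (Nat.mod_eq_of_lt r.2)) rfl)

/-- Invalid constraints have no variables. -/
theorem vars_invalid (hD : D.Ok) (hk : 0 < k) (hk2 : 2 * D.h ≤ k) (e : D.HCon k)
    (he : ¬ e.Valid (D.toHorn hD) (modRows hD.hh hk2)) : (hsys hD hk).vars e = ∅ := by
  classical
  cases e with
  | row ρ m r a =>
    have hdom : ¬ ((D.rule ρ).op (r % D.h)).inDom a := he
    simp only [SlotSys.vars, hsys, Act]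
    ext v
    simp [hdom]
  | cross m => exact absurd trivial he
  | goal => exact absurd trivial he

end HData

end Vale.Agent.P310
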